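import Crest.Agent.R330.IB0
import Crest.Agent.R330.BC3.M1

/-! # Row 330, BC/A (statements frozen; see `R330/Blueprint.lean`) -/

set_option autoImplicit false
set_option linter.unusedSectionVars false

noncomputable section

open MeasureTheory Filter Topology
open scoped InnerProductSpace ContDiff Matrix
open Crest.MathPhysics.MatrixQM (GammaNine)

namespace Crest.Agent.R330

variable {E Z L H F : Type}
  [NormedAddCommGroup E] [InnerProductSpace ℝ E] [FiniteDimensional ℝ E]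
  [NormedAddCommGroup Z] [InnerProductSpace ℝ Z] [FiniteDimensional ℝ Z]
  [NormedAddCommGroup L] [InnerProductSpace ℝ L] [FiniteDimensional ℝ L]
  [NormedAddCommGroup H] [InnerProductSpace ℝ H] [FiniteDimensional ℝ H]
  [NormedAddCommGroup F] [InnerProductSpace ℂ F] [FiniteDimensional ℂ F]
  [MeasurableSpace E] [BorelSpace E] [MeasurableSpace Z] [BorelSpace Z]
  [MeasurableSpace L] [BorelSpace L] [MeasurableSpace H] [BorelSpace H]
  {P : Type} [Fintype P] {𝔤 : Lie E} (D : Levi 𝔤 Z L H P) (C : Cl (Th E) F) (σ : Spn)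

namespace Levi

/-! ### BC1: Gaussian fibre calculus -/

/-- Integrability of polynomial moments of the Gaussian weight. -/
theorem integrable_moment {z : X Z} (hz : z ∈ D.reg) {a : ℝ} (ha : 0 < a) (n : ℕ) :
    Integrable fun y : X H => D.wt z y * Real.exp (-a * D.hq z y) * ‖y‖ ^ n := by
  simpa only [D.cosc_w hz, D.cosc_h hz] using (D.cosc_sc1 hz).integrable ha n

theorem c3_cont_hq {z : X Z} (hz : z ∈ D.reg) : Continuous (D.hq z) := by
  have := (D.cosc hz).continuous_h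
  rwa [show (D.cosc hz).h = D.hq z from funext (D.cosc_h hz)] at this

theorem nu_pos {z : X Z} (hz : z ∈ D.reg) : 0 < D.nu z := by
  have cw : Continuous (D.wt z) := (D.cosc hz).continuous_w
  have ch := D.c3_cont_hq hz
  have hi := D.integrable_moment hz two_pos 0
  simp only [pow_zero, mul_one] at hi
  refine Real.sqrt_pos.2 (integral_pos_of_integrable_nonneg_nonzero (x := 0) (by fun_prop) hi
    (fun y => mul_nonneg (D.wt_nonneg z y) (Real.exp_pos _).le) ?_)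
  refine mul_ne_zero (mul_ne_zero ?_ (D.cosc hz).j_pos.ne') (Real.exp_pos _).ne'
  rw [Real.smoothTransition.one_of_one_le] <;> simp [Phi]

theorem nu_sq (z : X Z) : D.nu z ^ 2 = ∫ y, D.wt z y * Real.exp (-2 * D.hq z y) :=
  Real.sq_sqrt (integral_nonneg fun y => mul_nonneg (D.wt_nonneg z y) (Real.exp_pos _).le)

theorem c3_nu_sq {z z₀ : X Z} (hz : z ∈ D.reg) (h₀ : z₀ ∈ D.reg) :
    D.nu z ^ 2 = (∏ p, ((D.M p z) ^ (3 * D.m p))⁻¹) * ∫ y, D.c3G z₀ y * ‖y‖ ^ 0 := by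
  have := D.c3_change hz (f := fun _ => 1) continuous_const
  rw [← D.c3G_moment h₀ hz, nu_sq]
  simpa using this

theorem c3_nu_eq : ∃ c : ℝ, ∀ z ∈ D.reg,
    D.nu z = Real.exp (c - ∑ p, 3 / 2 * D.m p * Real.log (D.M p z)) := by
  by_cases h : D.reg.Nonempty
  swap
  · exact ⟨0, fun z hz => (h ⟨z, hz⟩).elim⟩
  obtain ⟨z₀, h₀⟩ := h
  refine ⟨Real.log (∫ y, D.c3G z₀ y * ‖y‖ ^ 0) / 2, fun z hz => ?_⟩
  have h1 := D.c3_nu_sq hz h₀
  have h2 := D.nu_pos hz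
  have h3 : ∀ p, ((D.M p z) ^ (3 * D.m p))⁻¹ ≠ 0 := fun p => inv_ne_zero (pow_pos (hz p) _).ne'
  have h4 := congrArg Real.log h1
  rw [Real.log_mul (Finset.prod_ne_zero_iff.2 fun p _ => h3 p)
    (right_ne_zero_of_mul (h1 ▸ (pow_pos h2 2).ne')), Real.log_prod fun p _ => h3 p,
    Real.log_pow] at h4
  rw [← Real.exp_log h2]
  congr 1
  have h5 : ∑ p, Real.log ((D.M p z) ^ (3 * D.m p))⁻¹ =
      -2 * ∑ p, 3 / 2 * D.m p * Real.log (D.M p z) := by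
    rw [Finset.mul_sum]
    refine Finset.sum_congr rfl fun p _ => ?_
    rw [Real.log_inv, Real.log_pow]; push_cast; ring
  rw [h5] at h4
  push_cast at h4
  linarith

theorem contDiffOn_nu : ContDiffOn ℝ ∞ D.nu D.reg := by
  obtain ⟨c, hc⟩ := D.c3_nu_eq
  exact (contDiffOn_const.sub (ContDiffOn.sum fun p _ => contDiffOn_const.mul
    ((D.contDiffOn_M p).log fun z hz => (hz p).ne'))).exp.congr hc

/-- `ν² ∝ ∏ M_p^{-3 m_p}`. -/
theorem fderiv_nu {z : X Z} (hz : z ∈ D.reg) (v : X Z) :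
    fderiv ℝ D.nu z v = -(D.nu z * ∑ p, 3 / 2 * D.m p * fderiv ℝ (D.M p) z v / D.M p z) := by
  obtain ⟨c, hc⟩ := D.c3_nu_eq
  have hn := D.isOpen_reg.mem_nhds hz
  have hM : ∀ p, HasFDerivAt (D.M p) (fderiv ℝ (D.M p) z) z := fun p =>
    (((D.contDiffOn_M p).contDiffAt hn).differentiableAt (by simp)).hasFDerivAt
  have h1 := ((HasFDerivAt.fun_sum (u := Finset.univ) fun p _ =>
    ((hM p).log (hz p).ne').const_mul (3 / 2 * D.m p : ℝ)).const_sub c).exp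
  rw [(h1.congr_of_eventuallyEq (eventually_of_mem hn hc)).fderiv, ← hc z hz]
  simp only [smul_apply, neg_apply, sum_apply, smul_eq_mul, mul_neg]
  congr 2
  exact Finset.sum_congr rfl fun p _ => by ring

/-- Second moments of `y^⊥`: covariance `(2M)⁻¹` on the transverse space. -/
theorem moment_two {z : X Z} (hz : z ∈ D.reg) (a b : X H) :
    ∫ y, D.wt z y * Real.exp (-2 * D.hq z y) *
        (⟪D.perp z a, lift 9 (D.Mop z) y⟫_ℝ * ⟪D.perp z b, y⟫_ℝ) =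
      D.nu z ^ 2 / 2 * ⟪D.perp z a, D.perp z b⟫_ℝ := by
  have := (D.cosc_sc1 hz).stein a (D.perp z b)
  simp only [D.cosc_w hz, D.cosc_h hz, D.cosc_Pr hz] at this
  rw [nu_sq, real_inner_comm, ← this]
  congr 1
  ext y
  rw [D.cosc_S hz, D.c3_lift_Mop, D.c3_lift_Mop, sum_inner, inner_sum]
  simp only [inner_smul_left, inner_smul_right, D.c3_inner_pr]
  rfl

theorem c3_cov {z : X Z} (hz : z ∈ D.reg) (a b : X H) :
    ∫ y, D.wt z y * Real.exp (-2 * D.hq z y) * (⟪D.c3A z a, y⟫_ℝ * ⟪D.c3A z b, y⟫_ℝ) =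
      D.nu z ^ 2 / 2 * ∑ p, (D.M p z)⁻¹ * ⟪b, lift 9 (D.pr p) (D.c3A z a)⟫_ℝ := by
  have := (D.cosc_sc1 hz).stein (∑ p, (D.M p z)⁻¹ • lift 9 (D.pr p) a) (D.c3A z b)
  have h1 : D.c3A z (∑ p, (D.M p z)⁻¹ • lift 9 (D.pr p) a) =
      ∑ p, (D.M p z)⁻¹ • lift 9 (D.pr p) (D.c3A z a) := by
    simp only [map_sum, map_smul, D.c3A_pr]
  have h2 : (D.cosc hz).S (∑ p, (D.M p z)⁻¹ • lift 9 (D.pr p) a) = D.c3A z a := by
    rw [D.cosc_S hz, ← D.c3A_apply, h1, D.c3_lift_Mop]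
    conv_rhs => rw [← D.c3_sum_pr (D.c3A z a)]
    refine Finset.sum_congr rfl fun p _ => ?_
    rw [D.c3_pr_sum, smul_smul, mul_inv_cancel₀ (hz p).ne', one_smul]
  simp only [D.cosc_w hz, D.cosc_h hz, D.cosc_Pr hz, h2] at this
  rw [this, nu_sq, ← D.c3A_apply, D.c3A_sym, D.c3A_idem hz, h1, inner_sum]
  simp only [inner_smul_right]

theorem c3_integrable_inner {z : X Z} (hz : z ∈ D.reg) (a b : X H) :
    Integrable fun y => D.wt z y * Real.exp (-2 * D.hq z y) * (⟪a, y⟫_ℝ * ⟪b, y⟫_ℝ) := by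
  simpa only [D.cosc_w hz, D.cosc_h hz] using (D.cosc_sc1 hz).integrable_inner a b

theorem moment_norm {z : X Z} (hz : z ∈ D.reg) (p : P) :
    ∫ y, D.wt z y * Real.exp (-2 * D.hq z y) * ‖lift 9 (D.pr p) (D.perp z y)‖ ^ 2 =
      D.nu z ^ 2 * (4 * D.m p / D.M p z) := by
  classical
  set e := stdOrthonormalBasis ℝ (X H)
  have h1 : ∀ y, D.wt z y * Real.exp (-2 * D.hq z y) * ‖lift 9 (D.pr p) (D.perp z y)‖ ^ 2 =
      ∑ k, D.wt z y * Real.exp (-2 * D.hq z y) * (⟪D.c3A z (lift 9 (D.pr p) (e k)), y⟫_ℝ *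
        ⟪D.c3A z (lift 9 (D.pr p) (e k)), y⟫_ℝ) := fun y => by
    rw [← Finset.mul_sum, ← e.sum_sq_inner_right]
    simp only [D.c3A_sym, D.c3_inner_pr, ← D.c3A_apply, sq]
  simp only [h1]
  rw [integral_finsetSum _ fun k _ => D.c3_integrable_inner hz _ _]
  simp only [D.c3_cov hz]
  have h2 : ∀ k, ∑ q, (D.M q z)⁻¹ * ⟪lift 9 (D.pr p) (e k),
      lift 9 (D.pr q) (D.c3A z (lift 9 (D.pr p) (e k)))⟫_ℝ =
      (D.M p z)⁻¹ * ⟪e k, (lift 9 (D.pr p) ∘ₗ D.c3A z) (e k)⟫_ℝ := fun k => by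
    rw [Finset.sum_eq_single p]
    · simp only [D.c3_inner_pr, D.c3A_pr, D.c3_pr_pr, LinearMap.comp_apply]
    · intro q _ hq
      rw [D.c3A_pr, D.c3_pr_orth hq, inner_zero_right, mul_zero]
    · simp
  simp only [h2]
  rw [← Finset.mul_sum, ← Finset.mul_sum, ← LinearMap.trace_eq_sum_inner, D.c3A_trace hz]
  ring

theorem c3_pr_tens (z : X Z) (u : Fin 9 → ℝ) (j : Fin 9) (p : P) :
    ∃ c : ℝ, ∀ s, D.pr p (D.c3A z (tens u s) j) = c • D.pr p s := by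
  refine ⟨u j - D.α p (z j) * ((D.M p z ^ 2)⁻¹ * ∑ i, u i * D.α p (z i)), fun s => ?_⟩
  have hI := D.I_cx.2 (D.pr p s)
  simp only [c3A_apply, perp, PiLp.sub_apply, b0a_lam_apply, map_sub, map_neg, b0a_pr_adZ,
    b0a_pr_Minv, Phi, map_sum, tens, map_smul, hI, smul_neg, smul_smul, sub_smul,
    Finset.mul_sum, Finset.sum_smul, Finset.sum_neg_distrib, neg_neg, mul_left_comm (u _)]

theorem c3_anti {z : X Z} (hz : z ∈ D.reg) {W : Type} [NormedAddCommGroup W] [NormedSpace ℝ W]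
    [CompleteSpace W] (β : H →ₗ[ℝ] H →ₗ[ℝ] W) (hβ : ∀ s t, β s t = -β t s) (i j : Fin 9) :
    (Integrable fun y => (D.wt z y * Real.exp (-2 * D.hq z y)) •
      β (D.perp z y i) (D.perp z y j)) ∧
    ∫ y, (D.wt z y * Real.exp (-2 * D.hq z y)) • β (D.perp z y i) (D.perp z y j) = 0 := by
  classical
  set f := stdOrthonormalBasis ℝ H
  have h0 : ∀ (k : Fin 9) (s : H) (x : X H), ⟪tens (Pi.single k 1) s, x⟫_ℝ = ⟪s, x k⟫_ℝ :=
    fun k s x => by
      rw [PiLp.inner_apply, Finset.sum_eq_single k]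
      · simp [tens]
      · intro l _ hl; simp [tens, hl]
      · simp
  have h1 : ∀ y, (D.wt z y * Real.exp (-2 * D.hq z y)) • β (D.perp z y i) (D.perp z y j) =
      ∑ a, ∑ b, (D.wt z y * Real.exp (-2 * D.hq z y) *
        (⟪D.c3A z (tens (Pi.single i 1) (f a)), y⟫_ℝ *
          ⟪D.c3A z (tens (Pi.single j 1) (f b)), y⟫_ℝ)) • β (f a) (f b) := fun y => by
    conv_lhs => rw [← f.sum_repr' (D.perp z y i), ← f.sum_repr' (D.perp z y j)]
    simp only [D.c3A_sym, h0, ← D.c3A_apply, map_sum, map_smul, LinearMap.sum_apply,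
      LinearMap.smul_apply, Finset.smul_sum, smul_smul]
    rw [Finset.sum_comm]
    simp only [mul_comm]
  have h2 : ∀ a b, Integrable fun y => (D.wt z y * Real.exp (-2 * D.hq z y) *
        (⟪D.c3A z (tens (Pi.single i 1) (f a)), y⟫_ℝ *
          ⟪D.c3A z (tens (Pi.single j 1) (f b)), y⟫_ℝ)) • β (f a) (f b) := fun a b =>
    (D.c3_integrable_inner hz _ _).smul_const _
  simp only [h1]
  refine ⟨integrable_finsetSum _ fun a _ => integrable_finsetSum _ fun b _ => h2 a b, ?_⟩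
  rw [integral_finsetSum _ fun a _ => integrable_finsetSum _ fun b _ => h2 a b]
  simp only [integral_finsetSum _ fun b _ => h2 _ b, integral_smul_const, D.c3_cov hz, h0]
  choose c hc using D.c3_pr_tens z (Pi.single i 1) j
  simp only [lift_apply, hc]
  set S := ∑ a, ∑ b, (D.nu z ^ 2 / 2 * ∑ p, (D.M p z)⁻¹ * ⟪f b, c p • D.pr p (f a)⟫_ℝ) •
    β (f a) (f b) with hS
  have : S = -S := by
    conv_lhs => rw [hS, Finset.sum_comm]
    rw [hS, ← Finset.sum_neg_distrib]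
    refine Finset.sum_congr rfl fun a _ => ?_
    rw [← Finset.sum_neg_distrib]
    refine Finset.sum_congr rfl fun b _ => ?_
    rw [hβ, smul_neg]
    simp only [inner_smul_right, ← D.pr_sym _ (f a), real_inner_comm (f b)]
  have h3 : (2 : ℝ) • S = 0 := by rw [two_smul]; nth_rewrite 1 [this]; exact neg_add_cancel S
  exact (smul_eq_zero.1 h3).resolve_left two_ne_zero

/-- The Gaussian average of the transverse quadratic potential vanishes. -/
theorem moment_wpot (u : Fin 16 → ℝ) {z : X Z} (hz : z ∈ D.reg) :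
    ∫ y, (D.wt z y * Real.exp (-2 * D.hq z y)) • wpot 𝔤 σ.G u (liftI 9 D.iH (D.perp z y)) = 0 := by
  let β : Fin 9 → Fin 9 → H →ₗ[ℝ] H →ₗ[ℝ] Th E := fun i j => LinearMap.mk₂ ℝ
    (fun s t => (1 / 2 : ℝ) • tens ((σ.G.γ i * σ.G.γ j) *ᵥ u) (𝔤.br (D.iH s) (D.iH t)))
    (fun a b t => by ext k; simp [tens]) (fun r a t => by ext k; simp [tens, smul_comm r])
    (fun a b t => by ext k; simp [tens]) (fun r a t => by ext k; simp [tens, smul_comm r])
  have hβ : ∀ i j s t, β i j s t = -β i j t s := fun i j s t => by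
    ext k
    simp [β, tens, 𝔤.anti (D.iH s)]
  have h1 : ∀ y, (D.wt z y * Real.exp (-2 * D.hq z y)) • wpot 𝔤 σ.G u (liftI 9 D.iH (D.perp z y)) =
      ∑ i, ∑ j, (D.wt z y * Real.exp (-2 * D.hq z y)) • β i j (D.perp z y i) (D.perp z y j) :=
    fun y => by simp only [wpot, Finset.smul_sum]; rfl
  simp only [h1]
  rw [integral_finsetSum _ fun i _ => integrable_finsetSum _ fun j _ =>
    (D.c3_anti hz _ (hβ i j) i j).1]
  refine Finset.sum_eq_zero fun i _ => ?_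
  rw [integral_finsetSum _ fun j _ => (D.c3_anti hz _ (hβ i j) i j).1]
  exact Finset.sum_eq_zero fun j _ => (D.c3_anti hz _ (hβ i j) i j).2

theorem c3_mem_reg {κ : ℝ} (hκ : 1 ≤ κ) {z : X Z} (h1 : 1 ≤ ‖z‖) (hM : ∀ p, ‖z‖ ≤ κ * D.M p z) :
    z ∈ D.reg := fun p => pos_of_mul_pos_right (a := κ) (by linarith [hM p]) (by linarith)

/-- Moment bounds `⟨|y|^n⟩ ≤ B ρ^{-n/2}`. -/
theorem moment_le {κ : ℝ} (hκ : 1 ≤ κ) (n : ℕ) : ∃ B : ℝ, 0 < B ∧ ∀ z : X Z, 1 ≤ ‖z‖ →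
    (∀ p, ‖z‖ ≤ κ * D.M p z) →
    ∫ y, D.wt z y * Real.exp (-2 * D.hq z y) * ‖y‖ ^ (2 * n) ≤ B * D.nu z ^ 2 / ‖z‖ ^ n := by
  by_cases h : D.reg.Nonempty
  swap
  · exact ⟨1, one_pos, fun z h1 hM => (h ⟨z, D.c3_mem_reg hκ h1 hM⟩).elim⟩
  obtain ⟨z₀, h₀⟩ := h
  set c₀ := ∫ y, D.c3G z₀ y * ‖y‖ ^ 0
  set c := ∫ y, D.c3G z₀ y * ‖y‖ ^ (2 * n)
  have hP : ∀ z ∈ D.reg, 0 < ∏ p, ((D.M p z) ^ (3 * D.m p))⁻¹ := fun z hz =>
    Finset.prod_pos fun p _ => inv_pos.2 (pow_pos (hz p) _)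
  have hc₀ : 0 < c₀ :=
    pos_of_mul_pos_right (D.c3_nu_sq h₀ h₀ ▸ pow_pos (D.nu_pos h₀) 2) (hP z₀ h₀).le
  have hc : 0 ≤ c := integral_nonneg fun y => mul_nonneg (D.c3G_nonneg y) (by positivity)
  refine ⟨(κ ^ 2) ^ n * c / c₀ + 1, by positivity, fun z h1 hM => ?_⟩
  have hz := D.c3_mem_reg hκ h1 hM
  have hp := hP z hz
  rw [D.c3_change hz (by fun_prop), D.c3_nu_sq hz h₀]
  have h2 : ∫ y, D.c3G z y * ‖D.c3T z y‖ ^ (2 * n) ≤ (κ ^ 2 / ‖z‖) ^ n * c := by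
    rw [show c = _ from D.c3G_moment hz h₀ _, ← integral_const_mul]
    refine integral_mono_of_nonneg (Eventually.of_forall fun y =>
      mul_nonneg (D.c3G_nonneg y) (by positivity)) ((D.c3G_integrable hz _).const_mul _)
      (Eventually.of_forall fun y => ?_)
    show D.c3G z y * _ ≤ _ * (D.c3G z y * _)
    rw [mul_left_comm, pow_mul, pow_mul, ← mul_pow]
    exact mul_le_mul_of_nonneg_left (pow_le_pow_left₀ (sq_nonneg _) (D.c3_norm_T hz hκ h1 hM y) _)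
      (D.c3G_nonneg y)
  refine (mul_le_mul_of_nonneg_left h2 hp.le).trans ?_
  have : 0 < ‖z‖ := by linarith
  change _ ≤ _ * (_ * c₀) / _
  generalize ∏ p, ((D.M p z) ^ (3 * D.m p))⁻¹ = J at hp
  rw [div_pow, le_div_iff₀ (by positivity)]
  clear_value c₀ c
  field_simp
  linarith

/-- Fibrewise Cauchy–Schwarz: the map `T` with an extra factor `|y|^n`. -/
theorem fibre_cs {κ : ℝ} (hκ : 1 ≤ κ) (n : ℕ) : ∃ B : ℝ, 0 < B ∧ (n = 0 → B = 1) ∧
    ∀ z : X Z, 1 ≤ ‖z‖ → (∀ p, ‖z‖ ≤ κ * D.M p z) → ∀ (r : X H → F) (g : X H → ℝ),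
      AEStronglyMeasurable r volume → (∀ y, 0 ≤ g y) →
      Integrable (fun y => D.wt z y * g y ^ 2) → (∀ y, D.wt z y ≠ 0 → ‖r y‖ ≤ ‖y‖ ^ n * g y) →
      AEStronglyMeasurable g volume →
      ‖(((D.nu z)⁻¹ : ℝ) : ℂ) • ∫ y, ((D.wt z y * Real.exp (-D.hq z y) : ℝ) : ℂ) • r y‖ ^ 2 ≤
        B / ‖z‖ ^ n * ∫ y, D.wt z y * g y ^ 2 := by
  obtain ⟨B, hB, hB0, hb⟩ : ∃ B : ℝ, 0 < B ∧ (n = 0 → B = 1) ∧ ∀ z : X Z, 1 ≤ ‖z‖ →
      (∀ p, ‖z‖ ≤ κ * D.M p z) → ∫ y, D.wt z y * Real.exp (-2 * D.hq z y) * ‖y‖ ^ (2 * n) ≤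
        B * D.nu z ^ 2 / ‖z‖ ^ n := by
    rcases eq_or_ne n 0 with rfl | hn
    · exact ⟨1, one_pos, fun _ => rfl, fun z _ _ => by simp [nu_sq]⟩
    · obtain ⟨B, h1, h2⟩ := D.moment_le hκ n
      exact ⟨B, h1, fun h => (hn h).elim, h2⟩
  refine ⟨B, hB, hB0, fun z h1 hM r g _ hg0 hgi hr hgm => ?_⟩
  have hz := D.c3_mem_reg hκ h1 hM
  have hν := D.nu_pos hz
  have cw : Continuous (D.wt z) := (D.cosc hz).continuous_w
  have ch := D.c3_cont_hq hz
  have e : ∀ y, D.wt z y * (Real.exp (-D.hq z y) * ‖y‖ ^ n) ^ 2 =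
      D.wt z y * Real.exp (-2 * D.hq z y) * ‖y‖ ^ (2 * n) := fun y => by
    rw [mul_pow, ← Real.exp_nat_mul, ← pow_mul, mul_comm n, mul_assoc]
    congr 3; push_cast; ring
  obtain ⟨hi, hcs⟩ := bc3_cs (w := D.wt z) (a := fun y => Real.exp (-D.hq z y) * ‖y‖ ^ n) (g := g)
    (D.wt_nonneg z) (by simpa only [e] using D.integrable_moment hz two_pos (2 * n)) hgi
    (cw.aestronglyMeasurable.mul ((by fun_prop : Continuous fun y =>
      Real.exp (-D.hq z y) * ‖y‖ ^ n).aestronglyMeasurable.mul hgm))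
  simp only [e] at hcs
  have h2 : ‖∫ y, ((D.wt z y * Real.exp (-D.hq z y) : ℝ) : ℂ) • r y‖ ≤
      ∫ y, D.wt z y * (Real.exp (-D.hq z y) * ‖y‖ ^ n * g y) := by
    refine norm_integral_le_of_norm_le hi (Eventually.of_forall fun y => ?_)
    have hw := D.wt_nonneg z y
    rw [norm_smul, Complex.norm_real, Real.norm_of_nonneg (by positivity)]
    rcases eq_or_ne (D.wt z y) 0 with h | h
    · simp [h]
    · rw [mul_assoc, mul_assoc]
      gcongr
      exact hr y h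
  have h3 : 0 ≤ ∫ y, D.wt z y * g y ^ 2 :=
    integral_nonneg fun y => mul_nonneg (D.wt_nonneg z y) (sq_nonneg _)
  rw [norm_smul, Complex.norm_real, Real.norm_of_nonneg (inv_pos.2 hν).le, mul_pow]
  calc _ ≤ (D.nu z)⁻¹ ^ 2 * (B * D.nu z ^ 2 / ‖z‖ ^ n * ∫ y, D.wt z y * g y ^ 2) := by
        refine mul_le_mul_of_nonneg_left ?_ (sq_nonneg _)
        refine (pow_le_pow_left₀ (norm_nonneg _) h2 2).trans (hcs.trans ?_)
        exact mul_le_mul_of_nonneg_right (hb z h1 hM) h3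
    _ = _ := by field_simp

end Levi

end Crest.Agent.R330

end
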