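import Crest.Agent.R330.BC.A
import Crest.Agent.R330.BC3.R0

/-! # Row 330, BC/B (statements frozen; see `R330/Blueprint.lean`) -/

set_option autoImplicit false
set_option linter.unusedSectionVars false

noncomputable section

open MeasureTheory Filter Topology
open scoped InnerProductSpace ContDiff Matrix
open Crest.MathPhysics.MatrixQM (GammaNine)

namespace Crest.Agent.R330

variable {E Z L H F : Type}
  [NormedAddCommGroup E] [InnerProductSpace ℝ E] [FiniteDimensional ℝ E]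
  [NormedAddCommGroup Z] [InnerProductSpace ℝ Z] [FiniteDimensional ℝ Z]
  [NormedAddCommGroup L] [InnerProductSpace ℝ L] [FiniteDimensional ℝ L]
  [NormedAddCommGroup H] [InnerProductSpace ℝ H] [FiniteDimensional ℝ H]
  [NormedAddCommGroup F] [InnerProductSpace ℂ F] [FiniteDimensional ℂ F]
  [MeasurableSpace E] [BorelSpace E] [MeasurableSpace Z] [BorelSpace Z]
  [MeasurableSpace L] [BorelSpace L] [MeasurableSpace H] [BorelSpace H]
  {P : Type} [Fintype P] {𝔤 : Lie E} (D : Levi 𝔤 Z L H P) (C : Cl (Th E) F) (σ : Spn)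

namespace Levi

/-! ### BC2: the effective wave function -/

theorem c3_skew_sum {A B W : Type} [NormedAddCommGroup A] [InnerProductSpace ℝ A]
    [FiniteDimensional ℝ A] [NormedAddCommGroup B] [InnerProductSpace ℝ B] [FiniteDimensional ℝ B]
    [AddCommGroup W] [Module ℝ W] (β : A →ₗ[ℝ] B →ₗ[ℝ] W) {V : Matrix (Fin 9) (Fin 9) ℝ}
    (hV : Vᵀ = -V) (z : X A) (y : X B) :
    ∑ i, β (mat V z i) (y i) + ∑ i, β (z i) (mat V y i) = 0 := by
  have h : ∀ i j, V j i = -V i j := fun i j => congrFun (congrFun hV i) j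
  simp only [mat, LinearMap.coe_mk, AddHom.coe_mk, map_sum, map_smul, LinearMap.sum_apply,
    LinearMap.smul_apply]
  rw [Finset.sum_comm, ← Finset.sum_add_distrib]
  refine Finset.sum_eq_zero fun i _ => ?_
  rw [← Finset.sum_add_distrib]
  exact Finset.sum_eq_zero fun j _ => by rw [h i j, neg_smul, neg_add_cancel]

/-- Regularity and symmetries. -/
theorem eff_red {𝒱 : Wts} (h𝒱 : 𝒱.OK) {κ θ R : ℝ} (hκ : 1 ≤ κ) (hθ : 0 < θ) (hθ' : θ ≤ 1 / 2)
    (hR : 0 < R) {u : X E → F} (hu : D.Loc C σ.G 𝒱 κ θ R u) :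
    D.Eff C σ.G 𝒱 κ (2 * θ) (R / 2) (D.red C σ.G u) := by
  have hu0 := hu.c3empty
  have hc := c3_red_core hκ hθ' hR hu0
  refine ⟨hc, c3_Pi_red hκ hθ hθ' hR hu0, fun z l ξ => ?_, fun p hp q => ?_,
    c3_red_supp hθ hθ' hu0⟩
  · have h1 := (hc.1.differentiable (by simp) (z, l)).hasFDerivAt.comp l
      (hasFDerivAt_prodMk_right z l)
    have h2 : ∀ y, D.Phi z (lift 9 (D.adL ξ) y) = D.adL ξ (D.Phi z y) := fun y => by
      simp [Phi, adZ, D.adL_I, D.adL_pr, lift_apply]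
    have key := c3_red_sym hκ hθ hθ' hR hu0 z l 0 (lift 9 (D.𝔩.br ξ) l)
      (isSkew_lift (D.isSkew_adL ξ)) ((D.CL C).S (lift 16 (D.𝔩.br ξ))) (fun _ p => map_zero _)
      (fun p y => by ext i; simp [lift_apply, D.adL_pr])
      (fun p y => by
        rw [h2, show D.Phi 0 y = 0 by simp [Phi, adZ], zero_add, ← D.pr_idem, D.pr_sym, ← D.adL_pr,
          real_inner_comm]
        exact Cl.a1c_skew_self (D.isSkew_adL ξ) _)
      (fun hz y hy => by
        have h3 : D.asm 0 (lift 9 (D.𝔩.br ξ) l) (lift 9 (D.adL ξ) y) =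
            lift 9 (𝔤.br (D.iL ξ)) (D.asm z l y) := by
          ext i
          simp [asm, liftI, lift_apply, D.brLL, D.brLH, 𝔤.anti (D.iL ξ) (D.iZ _), D.brZL]
        have h4 := (hu.2 (D.asm z l y) (by simpa using hy)).2.1 (D.iL ξ)
        have h5 := DFunLike.congr_fun ((D.CL C).comm_S _ (Or.inl (D.Pi_comm_L C σ.G z))
          (lift 16 (D.𝔩.br ξ))) (u (D.asm z l y))
        have h6 := DFunLike.congr_fun (D.S_adL_Pi C σ.G hz ξ).2 (u (D.asm z l y))
        rw [h3, h4, S_brL]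
        simp only [ContinuousLinearMap.mul_apply, zero_apply] at h5 h6
        simp [h5, h6])
    show fderiv ℝ (D.red C σ.G u ∘ fun l => (z, l)) l _ = _
    rw [h1.fderiv]
    simpa using key
  · have hV := h𝒱 p hp
    have h2 : ∀ y, D.Phi (mat p.1 q.1) y + D.Phi q.1 (mat p.1 y) = 0 :=
      c3_skew_sum D.b0a_adZL hV q.1
    have key := c3_red_sym hκ hθ hθ' hR hu0 q.1 q.2 (mat p.1 q.1) (mat p.1 q.2) (isSkew_mat hV)
      (C.S (mat (sig σ.G p.1)) + ((p.2 : ℂ) * Complex.I) • 1)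
      (fun hz r => by
        have := c3_skew_sum ((LinearMap.mul ℝ ℝ).compl₁₂ (D.α r) (D.α r)) hV q.1 q.1
        simp only [LinearMap.compl₁₂_apply, LinearMap.mul_apply', mul_comm (D.α r (mat p.1 q.1 _))]
          at this
        rw [D.fderiv_M r hz, add_self_eq_zero.1 this, zero_div])
      (fun r y => DFunLike.congr_fun (mat_lift p.1 (D.pr r)) y)
      (fun r y => by rw [h2, inner_zero_right])
      (fun hz y hy => by
        have h3 : D.asm (mat p.1 q.1) (mat p.1 q.2) (mat p.1 y) = mat p.1 (D.asm q.1 q.2 y) := by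
          ext i
          simp [asm, liftI, lift_apply, mat, Finset.sum_add_distrib]
        have h4 := (hu.2 (D.asm q.1 q.2 y) (by simpa using hy)).2.2 p hp
        have h5 := DFunLike.congr_fun ((D.CL C).comm_S _ (Or.inl (D.Pi_comm_L C σ.G q.1))
          (mat (sig σ.G p.1))) (u (D.asm q.1 q.2 y))
        have h6 := DFunLike.congr_fun ((D.CZ C).comm_S _ (Or.inl (D.Pi_comm_Z C σ.G q.1))
          (mat (sig σ.G p.1))) (u (D.asm q.1 q.2 y))
        rw [h3, h4, D.fderiv_Pi_rot C σ.G hz hV, D.S_mat]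
        simp only [ContinuousLinearMap.mul_apply] at h5 h6
        simp [h5, h6]
        abel)
    simpa using key

theorem c3_trace_lam {z : X Z} (hz : z ∈ D.reg) (v : X Z) :
    LinearMap.trace ℝ _ (D.b0a_lamL z ∘ₗ D.c3Phi v) =
      ∑ p, D.m p * fderiv ℝ (D.M p) z v / D.M p z := by
  have h : D.c3Phi v ∘ₗ D.b0a_lamL z = ∑ p, (fderiv ℝ (D.M p) z v / D.M p z) • D.pr p := by
    ext1 t
    refine D.b0b_ext fun p => ?_
    have hI := D.I_cx.2 (D.pr p t)
    rw [LinearMap.sum_apply]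
    simp only [LinearMap.smul_apply]
    rw [D.b0b_pr_sum, D.fderiv_M p hz, div_div, ← sq, Finset.sum_div, Finset.sum_smul]
    show D.pr p (D.Phi v (D.lam z t)) = _
    simp only [Phi, map_sum, b0a_pr_adZ, b0a_lam_apply, map_neg, map_smul, b0a_pr_Minv, hI, smul_neg,
      neg_neg, smul_smul]
    exact Finset.sum_congr rfl fun i _ => by congr 1; ring
  rw [LinearMap.trace_comp_comm', h, map_sum]
  exact Finset.sum_congr rfl fun p _ => by rw [map_smul, D.trace_pr, smul_eq_mul]; ring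

/-- Derivative of the effective wave function in a light direction `(v, l')`; all derivatives
under the integral are tangent to the level sets of `Φ`. -/
theorem fderiv_red {κ θ R : ℝ} (hκ : 1 ≤ κ) (hθ : 0 < θ) (hθ' : θ ≤ 1 / 2) (hR : 0 < R)
    {u : X E → F} (hu : D.Loc C σ.G ∅ κ θ R u) {z : X Z} (hz : z ∈ D.reg) (l : X L) (v : X Z)
    (l' : X L) :
    fderiv ℝ (D.red C σ.G u) (z, l) (v, l') = (((D.nu z)⁻¹ : ℝ) : ℂ) •
      ∫ y, ((D.wt z y * Real.exp (-D.hq z y) : ℝ) : ℂ) •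
        (D.Pi C σ.G z (fderiv ℝ u (D.asm z l y) (D.kap (D.asm z l y) (D.asm v l' 0))) +
          (((∑ p, 5 / 2 * D.m p * fderiv ℝ (D.M p) z v / D.M p z) -
            fderiv ℝ (fun q : X Z × X H => D.hq q.1 q.2) (z, y) (v, -D.lam z (D.Phi v y)) : ℝ) : ℂ) •
              D.Pi C σ.G z (u (D.asm z l y)) +
          fderiv ℝ (D.Pi C σ.G) z v (u (D.asm z l y))) := by
  rw [c3_red_fderiv hκ hθ' hR hu _ _ (-(D.b0a_lamL z ∘ₗ D.c3Phi v)), ← integral_smul]
  congr 1
  ext y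
  have e0 : (-(D.b0a_lamL z ∘ₗ D.c3Phi v)) y = -D.lam z (D.Phi v y) := rfl
  have e1 : D.Phi v y + D.Phi z (-D.lam z (D.Phi v y)) = 0 := by
    have := map_neg (D.c3Phi z) (D.lam z (D.Phi v y))
    rw [show D.Phi z (-_) = -D.Phi z _ from this, D.Phi_lam hz, add_neg_cancel]
  have e2 : D.kap (D.asm z l y) (D.asm v l' 0) = D.asm v l' (-D.lam z (D.Phi v y)) := by
    rw [kap, dPhi, zc_asm, zc_asm, yc_asm, yc_asm, show D.Phi z 0 = 0 by simp [Phi], zero_add]
    simp [asm, sub_eq_add_neg]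
  have e3 : ∑ p, 7 / 2 * D.m p * fderiv ℝ (D.M p) z v / D.M p z =
      ∑ p, 5 / 2 * D.m p * fderiv ℝ (D.M p) z v / D.M p z +
        ∑ p, D.m p * fderiv ℝ (D.M p) z v / D.M p z := by
    rw [← Finset.sum_add_distrib]
    exact Finset.sum_congr rfl fun p _ => by ring
  rw [e0, c3K_fderiv hu.1 hz l y v l' _ (by rw [e1, inner_zero_right]), map_neg, D.c3_trace_lam hz,
    e2, e3, c3K, c3s]
  simp only [Complex.coe_smul]
  module

/-- The tangential derivative of the exponent, up to a small error. -/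
theorem fderiv_hq {κ : ℝ} (hκ : 1 ≤ κ) : ∃ B : ℝ, 0 < B ∧ ∀ z : X Z, z ≠ 0 →
    (∀ p, ‖z‖ ≤ κ * D.M p z) → ∀ (y : X H) (v : X Z), ‖D.Phi z y‖ < 1 →
      |fderiv ℝ (fun q : X Z × X H => D.hq q.1 q.2) (z, y) (v, -D.lam z (D.Phi v y)) -
        1 / 2 * ∑ p, fderiv ℝ (D.M p) z v * ‖lift 9 (D.pr p) (D.perp z y)‖ ^ 2| ≤
        B * ‖y‖ * ‖v‖ / ‖z‖ := by
  obtain ⟨b, hb, hMb⟩ := D.exists_M_le
  obtain ⟨c, hc, hΦ⟩ := D.cb_Phi
  refine ⟨(Fintype.card P + 1) * (b * c * κ ^ 2 + c * κ), by positivity,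
    fun z h0 hM y v hy => ?_⟩
  have hz := D.c3_reg hκ h0 hM
  have hρ := norm_pos_iff.2 h0
  have e1 : D.Phi v y + D.Phi z (-D.lam z (D.Phi v y)) = 0 := by
    have := map_neg (D.c3Phi z) (D.lam z (D.Phi v y))
    rw [show D.Phi z (-_) = -D.Phi z _ from this, D.Phi_lam hz, add_neg_cancel]
  rw [D.c3_fderiv_hq hz, e1, Finset.mul_sum, ← Finset.sum_sub_distrib]
  have key : ∀ p, |1 / 2 * fderiv ℝ (D.M p) z v *
          (‖lift 9 (D.pr p) y‖ ^ 2 + ‖D.pr p (D.Phi z y)‖ ^ 2 / D.M p z ^ 2) +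
        D.M p z * ⟪lift 9 (D.pr p) y, -D.lam z (D.Phi v y)⟫_ℝ -
        ⟪D.pr p (D.Phi z y), 0⟫_ℝ / D.M p z -
        1 / 2 * (fderiv ℝ (D.M p) z v * ‖lift 9 (D.pr p) (D.perp z y)‖ ^ 2)| ≤
      (b * c * κ ^ 2 + c * κ) * ‖y‖ * ‖v‖ / ‖z‖ := fun p => by
    have hp := hz p
    have a1 : ⟪lift 9 (D.pr p) y, -D.lam z (D.Phi v y)⟫_ℝ =
        -((D.M p z ^ 2)⁻¹ * ⟪D.Phi v y, D.pr p (D.Phi z y)⟫_ℝ) := by
      rw [inner_neg_right, real_inner_comm, D.b0a_inner_lam, D.c3_Phi_pr, ← D.pr_sym, D.b0a_pr_Minv,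
        real_inner_smul_left, D.pr_sym]
    have a2 : |fderiv ℝ (D.M p) z v| ≤ b * ‖v‖ := by
      have := abs_real_inner_le_norm (lift 9 (D.α p) z) (lift 9 (D.α p) v)
      rw [← D.b0a_M_eq, ← D.b0a_M_eq, PiLp.inner_apply] at this
      rw [D.fderiv_M p hz, abs_div, abs_of_pos hp, div_le_iff₀ hp]
      simp only [lift_apply, RCLike.inner_apply, conj_trivial, mul_comm (D.α p (v _))] at this
      nlinarith [hMb p v]
    have a3 := (D.cb_pr p (D.Phi z y)).trans hy.le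
    have a4 := (D.cb_pr p (D.Phi z y)).trans (hΦ z y)
    have a5 := (abs_real_inner_le_norm (D.Phi v y) (D.pr p (D.Phi z y))).trans
      (mul_le_mul (hΦ v y) a3 (norm_nonneg _) (by positivity))
    have a6 : (D.M p z)⁻¹ ≤ κ / ‖z‖ := by
      rw [inv_eq_one_div, div_le_div_iff₀ hp hρ]; linarith [hM p]
    calc _ = |fderiv ℝ (D.M p) z v * (‖D.pr p (D.Phi z y)‖ * ‖D.pr p (D.Phi z y)‖) * (D.M p z)⁻¹ ^ 2 -
          ⟪D.Phi v y, D.pr p (D.Phi z y)⟫_ℝ * (D.M p z)⁻¹| := by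
          rw [a1, D.c3_norm_pr hz p y, inner_zero_right]
          congr 1
          field_simp
          ring
      _ ≤ b * ‖v‖ * (1 * (c * ‖z‖ * ‖y‖)) * (κ / ‖z‖) ^ 2 + c * ‖v‖ * ‖y‖ * 1 * (κ / ‖z‖) := by
          refine (abs_sub _ _).trans ?_
          simp only [abs_mul, abs_pow, abs_inv, abs_of_pos hp, abs_norm]
          gcongr
      _ = _ := by field_simp
  refine (Finset.abs_sum_le_sum_abs _ _).trans ((Finset.sum_le_sum fun p _ => key p).trans ?_)
  rw [Finset.sum_const, Finset.card_univ, nsmul_eq_mul]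
  have : 0 ≤ (b * c * κ ^ 2 + c * κ) * ‖y‖ * ‖v‖ / ‖z‖ := by positivity
  calc _ ≤ (Fintype.card P + 1) * ((b * c * κ ^ 2 + c * κ) * ‖y‖ * ‖v‖ / ‖z‖) := by nlinarith
    _ = _ := by ring

/-- Integration by parts in a transverse direction. -/
theorem fibre_ibp {z : X Z} (hz : z ∈ D.reg) {r : X H → F} (hr : ContDiff ℝ 1 r)
    (hc : HasCompactSupport r) (h : X H) :
    ∫ y, ((D.wt z y * Real.exp (-D.hq z y) : ℝ) : ℂ) • fderiv ℝ r y (D.perp z h) =
      ∫ y, ((D.wt z y * Real.exp (-D.hq z y) *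
        ⟪lift 9 (D.Mop z) (D.perp z y), h⟫_ℝ : ℝ) : ℂ) • r y := by
  set O := D.cosc hz
  simp only [← D.cosc_w hz, ← D.cosc_h hz, ← D.cosc_Pr hz, Complex.coe_smul]
  simp only [D.cosc_Pr hz, ← D.cosc_S hz]
  simp only [← D.cosc_Pr hz]
  have cw := O.continuous_w
  have ch := O.continuous_h
  have cr := hr.continuous
  have cd := bc3_continuous_fderiv_apply hr (O.Pr h)
  have key := integral_fderiv_eq_zero' (h := fun y => (O.w y * Real.exp (-O.h y)) • r y)
    ((O.contDiff_w.mul O.contDiff_h.neg.exp).smul hr) hc.smul_left (O.Pr h)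
  have e : ∀ y, fderiv ℝ (fun y => (O.w y * Real.exp (-O.h y)) • r y) y (O.Pr h) =
      (O.w y * Real.exp (-O.h y)) • fderiv ℝ r y (O.Pr h) -
        (O.w y * Real.exp (-O.h y) * ⟪O.S y, h⟫_ℝ) • r y := fun y => by
    rw [(((O.contDiff_w.differentiable (by simp) y).hasFDerivAt.fun_mul
      (O.hasFDerivAt_h y).fun_neg.exp).fun_smul (hr.differentiable (by simp) y).hasFDerivAt).fderiv]
    simp [O.fderiv_w_Pr, ← O.Pr_sym, O.Pr_S, sub_eq_add_neg, mul_assoc]
  simp only [e] at key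
  rwa [integral_sub (bc3_integrable hc (by fun_prop) fun y hy => by
      simp [fderiv_of_notMem_tsupport ℝ hy]) (bc3_integrable hc (by fun_prop) fun y hy => by
      simp [image_eq_zero_of_notMem_tsupport hy]), sub_eq_zero] at key

end Levi

end Crest.Agent.R330

end
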