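import Crest.Agent.R330.BC.B

/-! # Row 330, BC/C (statements frozen; see `R330/Blueprint.lean`) -/

set_option autoImplicit false
set_option linter.unusedSectionVars false

noncomputable section

open MeasureTheory Filter Topology
open scoped InnerProductSpace ContDiff Matrix
open Crest.MathPhysics.MatrixQM (GammaNine)

namespace Crest.Agent.R330

variable {E Z L H F : Type}
  [NormedAddCommGroup E] [InnerProductSpace ℝ E] [FiniteDimensional ℝ E]
  [NormedAddCommGroup Z] [InnerProductSpace ℝ Z] [FiniteDimensional ℝ Z]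
  [NormedAddCommGroup L] [InnerProductSpace ℝ L] [FiniteDimensional ℝ L]
  [NormedAddCommGroup H] [InnerProductSpace ℝ H] [FiniteDimensional ℝ H]
  [NormedAddCommGroup F] [InnerProductSpace ℂ F] [FiniteDimensional ℂ F]
  [MeasurableSpace E] [BorelSpace E] [MeasurableSpace Z] [BorelSpace Z]
  [MeasurableSpace L] [BorelSpace L] [MeasurableSpace H] [BorelSpace H]
  {P : Type} [Fintype P] {𝔤 : Lie E} (D : Levi 𝔤 Z L H P) (C : Cl (Th E) F) (σ : Spn)

namespace Levi

theorem c3_red_zero {u : X E → F} {z : X Z} {l : X L}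
    (h : ∀ y, D.wt z y = 0 ∨ D.asm z l y ∉ tsupport u) :
    D.red C σ.G u (z, l) = 0 ∧ (∀ y, D.wt z y * ‖u (D.asm z l y)‖ ^ 2 = 0) ∧
      ∀ y, D.wt z y * ‖D.dfc C σ.G u (D.asm z l y)‖ ^ 2 = 0 := by
  have h1 : D.red C σ.G u (z, l) = 0 := by
    rw [c3_red_eq]
    refine integral_eq_zero_of_ae (Eventually.of_forall fun y => ?_)
    rcases h y with h | h
    · simp [c3K, c3s, h]
    · simp [c3K, image_eq_zero_of_notMem_tsupport h]
  refine ⟨h1, fun y => ?_, fun y => ?_⟩ <;> rcases h y with h | h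
  · simp [h]
  · simp [image_eq_zero_of_notMem_tsupport h]
  · simp [h]
  · simp [dfc, h1, image_eq_zero_of_notMem_tsupport h]

/-- Fibrewise Pythagoras. -/
theorem pyth_fibre {κ θ R : ℝ} (hκ : 1 ≤ κ) (hθ : 0 < θ) (hθ' : θ ≤ 1 / 2) (hR : 0 < R)
    {u : X E → F} (hu : D.Loc C σ.G ∅ κ θ R u) (z : X Z) (l : X L) :
    Integrable (fun y => D.wt z y * ‖D.dfc C σ.G u (D.asm z l y)‖ ^ 2) ∧
    ∫ y, D.wt z y * ‖u (D.asm z l y)‖ ^ 2 =
      ‖D.red C σ.G u (z, l)‖ ^ 2 + ∫ y, D.wt z y * ‖D.dfc C σ.G u (D.asm z l y)‖ ^ 2 := by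
  rcases c3_fibre_cases hu hθ' hR z l with ⟨h0, hM, -⟩ | h
  swap
  · obtain ⟨h1, h2, h3⟩ := D.c3_red_zero C σ h
    simp [h1, h2, h3]
  have hz := D.c3_reg hκ h0 hM
  have hν := D.nu_pos hz
  set c := D.red C σ.G u (z, l) with hc
  have i0 : Integrable fun y => D.wt z y * ‖u (D.asm z l y)‖ ^ 2 :=
    (D.c3gd_sq hu.1).fibre hu.1 hz h0 l
  have i1 := D.integrable_moment hz two_pos 0
  simp only [pow_zero, mul_one] at i1
  have iK := c3K_integrable hκ hθ' hR hu (z, l)
  have i2 : Integrable fun y => (⟪c, D.c3K C σ.G u ((z, l), y)⟫_ℂ).re :=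
    (iK.const_inner (𝕜 := ℂ) c).re
  have e2 : ∫ y, (⟪c, D.c3K C σ.G u ((z, l), y)⟫_ℂ).re = ‖c‖ ^ 2 := by
    rw [← Db_re_self c]
    conv_rhs => rw [hc, c3_red_eq, ← integral_inner iK, ← c3_red_eq, ← hc]
    exact integral_re (iK.const_inner (𝕜 := ℂ) c)
  have e : ∀ y, D.wt z y * ‖D.dfc C σ.G u (D.asm z l y)‖ ^ 2 =
      D.wt z y * ‖u (D.asm z l y)‖ ^ 2 - 2 * (⟪c, D.c3K C σ.G u ((z, l), y)⟫_ℂ).re +
        D.wt z y * Real.exp (-2 * D.hq z y) * (‖c‖ ^ 2 / D.nu z ^ 2) := fun y => by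
    have h1 : ⟪c, D.Pi C σ.G z (u (D.asm z l y))⟫_ℂ = ⟪c, u (D.asm z l y)⟫_ℂ := by
      have := ((D.CH C).vac_sa (D.isCx_J σ.G hz)).isSymmetric c (u (D.asm z l y))
      refine this.symm.trans ?_
      exact congrArg (fun a => ⟪a, u (D.asm z l y)⟫_ℂ) (c3_Pi_red hκ hθ hθ' hR hu (z, l))
    have hE : Real.exp (-2 * D.hq z y) = Real.exp (-D.hq z y) ^ 2 := by
      rw [← Real.exp_nat_mul]; congr 1; push_cast; ring
    rw [dfc, zc_asm, yc_asm, lc_asm, ← hc, Complex.coe_smul, sub_eq_add_neg, ← neg_smul, add_comm,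
      c3K, c3s, ← Complex.coe_smul ((D.nu _)⁻¹ * _), inner_smul_right, Complex.re_ofReal_mul, h1,
      add_comm, bc3_norm_add_smul_sq, hE]
    ring
  simp only [e]
  refine ⟨(i0.sub' (i2.const_mul 2)).fun_add (i1.mul_const _), ?_⟩
  rw [integral_add (i0.sub' (i2.const_mul 2)) (i1.mul_const _), integral_sub i0 (i2.const_mul 2),
    integral_const_mul, integral_mul_const, e2, ← D.nu_sq]
  field_simp
  ring

/-- Integrated Pythagoras for a weight that is continuous off `z = 0`. -/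
theorem pyth {κ θ R : ℝ} (hκ : 1 ≤ κ) (hθ : 0 < θ) (hθ' : θ ≤ 1 / 2) (hR : 0 < R)
    {u : X E → F} (hu : D.Loc C σ.G ∅ κ θ R u) {wl : X Z × X L → ℝ}
    (hw : ContinuousOn wl {q | q.1 ≠ 0}) :
    Integrable (fun x => D.wtX x * (wl (D.zc x, D.lc x) * ‖D.dfc C σ.G u x‖ ^ 2)) ∧
    D.PI (fun x => wl (D.zc x, D.lc x) * ‖u x‖ ^ 2) =
      (∫ q, wl q * ‖D.red C σ.G u q‖ ^ 2) +
        D.PI fun x => wl (D.zc x, D.lc x) * ‖D.dfc C σ.G u x‖ ^ 2 := by
  have hc := c3_red_core hκ hθ' hR hu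
  have ir : ∀ {wl : X Z × X L → ℝ}, ContinuousOn wl {q | q.1 ≠ 0} →
      Integrable fun q => wl q * ‖D.red C σ.G u q‖ ^ 2 := fun {wl} hw =>
    IntegrableOn.integrable_of_forall_notMem_eq_zero
      (((hw.mono fun q hq => (c3_red_reg hκ hθ hθ' hR hu hq).1).mul
        (hc.1.continuous.norm.pow 2).continuousOn).integrableOn_compact hc.2.isCompact)
      fun q hq => by simp [image_eq_zero_of_notMem_tsupport hq]
  have iu : ∀ {wl : X Z × X L → ℝ}, ContinuousOn wl {q | q.1 ≠ 0} →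
      Integrable fun x => D.wtX x * (wl (D.zc x, D.lc x) * ‖u x‖ ^ 2) := fun hw =>
    ((D.c3gd_sq hu.1).mul (D.c3_on_wl hw)).integrable hu hθ' hR
  have ef : ∀ (a : ℝ) (q : X Z × X L), ∫ y, D.wt q.1 y * (a * ‖u (D.asm q.1 q.2 y)‖ ^ 2) =
      a * ‖D.red C σ.G u q‖ ^ 2 + ∫ y, D.wt q.1 y * (a * ‖D.dfc C σ.G u (D.asm q.1 q.2 y)‖ ^ 2) :=
    fun a q => by
      simp only [mul_left_comm _ a, integral_const_mul]
      rw [(D.pyth_fibre C σ hκ hθ hθ' hR hu q.1 q.2).2, mul_add]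
  have hm : AEStronglyMeasurable (fun x => D.wtX x * (wl (D.zc x, D.lc x) * ‖D.dfc C σ.G u x‖ ^ 2))
      volume := by
    have hU : IsOpen {x : X E | D.zc x ≠ 0 ∧ D.zc x ∈ D.reg} :=
      (isOpen_ne.inter D.isOpen_reg).preimage D.c3_cont_zc
    have cz := D.c3_cont_zc
    have cl := D.c3_cont_lc
    have cy : Continuous D.yc := D.yc.continuous_of_finiteDimensional
    have h1 : ContinuousOn (fun x => D.wtX x * (wl (D.zc x, D.lc x) * ‖D.dfc C σ.G u x‖ ^ 2))
        {x : X E | D.zc x ≠ 0 ∧ D.zc x ∈ D.reg} := by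
      refine D.continuous_wtX.continuousOn.mul (((D.c3_on_wl hw).mono fun x hx => hx.1).mul
        (ContinuousOn.pow (ContinuousOn.norm (hu.1.1.continuous.continuousOn.sub
          (ContinuousOn.smul (Complex.continuous_ofReal.comp_continuousOn (ContinuousOn.div ?_
            (D.contDiffOn_nu.continuousOn.comp cz.continuousOn fun x hx => hx.2)
              fun x hx => (D.nu_pos hx.2).ne')) (hc.1.continuous.comp (cz.prodMk cl)).continuousOn))) 2))
      exact (D.contDiffOn_hq.continuousOn.comp (cz.prodMk cy).continuousOn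
        fun x hx => ⟨hx.2, trivial⟩).neg.rexp
    refine ((aestronglyMeasurable_indicator_iff hU.measurableSet).2
      (h1.aestronglyMeasurable hU.measurableSet)).congr (Eventually.of_forall fun x => ?_)
    refine Set.indicator_apply_eq_self.2 fun hx => ?_
    rcases c3_fibre_cases hu hθ' hR (D.zc x) (D.lc x) with ⟨h0, hM, -⟩ | h
    · exact (hx ⟨h0, D.c3_reg hκ h0 hM⟩).elim
    · have := (D.c3_red_zero C σ h).2.2 (D.yc x)
      rw [asm_eq] at this
      rw [mul_left_comm, wtX, this, mul_zero]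
  have hi : Integrable fun x => D.wtX x * (wl (D.zc x, D.lc x) * ‖D.dfc C σ.G u x‖ ^ 2) := by
    rw [← D.measurePreserving_asm.integrable_comp hm,
      integrable_prod_iff (hm.comp_measurePreserving D.measurePreserving_asm)]
    simp only [Function.comp, c3_wtX_asm, zc_asm, lc_asm]
    refine ⟨Eventually.of_forall fun q => ?_, ?_⟩
    · simp only [mul_left_comm _ (wl _)]
      exact (D.pyth_fibre C σ hκ hθ hθ' hR hu q.1 q.2).1.const_mul _
    · have h1 := (D.measurePreserving_asm.integrable_comp_of_integrable (iu hw.abs)).integral_prod_left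
      simp only [Function.comp, c3_wtX_asm, zc_asm, lc_asm] at h1
      refine (h1.sub' (ir hw.abs)).congr (Eventually.of_forall fun q => ?_)
      simp only [ef, add_sub_cancel_left, norm_mul, Real.norm_eq_abs, abs_of_nonneg (D.wt_nonneg _ _),
        abs_pow, abs_norm]
  refine ⟨hi, ?_⟩
  have h2 := (D.measurePreserving_asm.integrable_comp_of_integrable hi).integral_prod_left
  rw [PI, PI, D.integral_eq_fibre (iu hw), D.integral_eq_fibre hi]
  simp only [Function.comp, c3_wtX_asm, zc_asm, lc_asm] at h2 ⊢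
  rw [← integral_add (ir hw) h2]
  simp only [ef]

end Levi

end Crest.Agent.R330

end
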