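import Crest.Agent.R330.BC3.H

/-! # Row 330, BC/D (statements frozen; see `R330/Blueprint.lean`) -/

set_option autoImplicit false
set_option linter.unusedSectionVars false

noncomputable section

open MeasureTheory Filter Topology
open scoped InnerProductSpace ContDiff Matrix
open Crest.MathPhysics.MatrixQM (GammaNine)

namespace Crest.Agent.R330

variable {E Z L H F : Type}
  [NormedAddCommGroup E] [InnerProductSpace ℝ E] [FiniteDimensional ℝ E]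
  [NormedAddCommGroup Z] [InnerProductSpace ℝ Z] [FiniteDimensional ℝ Z]
  [NormedAddCommGroup L] [InnerProductSpace ℝ L] [FiniteDimensional ℝ L]
  [NormedAddCommGroup H] [InnerProductSpace ℝ H] [FiniteDimensional ℝ H]
  [NormedAddCommGroup F] [InnerProductSpace ℂ F] [FiniteDimensional ℂ F]
  [MeasurableSpace E] [BorelSpace E] [MeasurableSpace Z] [BorelSpace Z]
  [MeasurableSpace L] [BorelSpace L] [MeasurableSpace H] [BorelSpace H]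
  {P : Type} [Fintype P] {𝔤 : Lie E} (D : Levi 𝔤 Z L H P) (C : Cl (Th E) F) (σ : Spn)

namespace Levi

/-! ### BC3: completeness -/

/-- Crude completeness with an admissible weight. -/
theorem complete {κ η : ℝ} (hκ : 1 ≤ κ) (hη : 0 < η) (B₁ : ℝ → ℝ → ℝ) : ∃ θ₀ B : ℝ, 0 < θ₀ ∧ 0 < B ∧
    ∀ θ, 0 < θ → θ ≤ θ₀ → ∀ Ω, 0 ≤ Ω → ∃ R₀ : ℝ, ∀ R, R₀ ≤ R → ∀ ε, 0 ≤ ε → ε ≤ 1 → ∀ u,
      D.Loc C σ.G ∅ κ θ R u → D.E1 C σ ε B₁ u → ∀ wl, Adm Ω wl →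
        D.PI (fun x => wl (D.zc x, D.lc x) * ‖D.dfc C σ.G u x‖ ^ 2) ≤
          η * D.PI (fun x => wl (D.zc x, D.lc x) * ‖u x‖ ^ 2) +
            B * D.PI fun x => wl (D.zc x, D.lc x) / ‖x‖ * ‖Qe 𝔤 C σ ε u x‖ ^ 2 :=
  D.c3_complete C σ hκ hη B₁

theorem defIneq {κ δ : ℝ} (hκ : 1 ≤ κ) (hδ : 0 < δ) (B₁ : ℝ → ℝ → ℝ) : ∃ θ₀ : ℝ, 0 < θ₀ ∧
    ∀ θ, 0 < θ → θ ≤ θ₀ → ∃ R₀ : ℝ, ∀ R, R₀ ≤ R → ∀ ε, 0 ≤ ε → ε ≤ 1 → ∀ u,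
      D.Loc C σ.G ∅ κ θ R u → D.E1 C σ ε B₁ u → D.DefIneq C σ ε δ u :=
  D.c3_defIneq C σ hκ hδ B₁

/-- Crude gradient bound. -/
theorem grad_crude {κ : ℝ} (hκ : 1 ≤ κ) (B₁ : ℝ → ℝ → ℝ) : ∃ B : ℝ, 0 < B ∧
    ∀ θ R, 0 < θ → θ ≤ 1 / 2 → 1 ≤ R → ∀ ε, 0 ≤ ε → ε ≤ 1 → ∀ u,
      D.Loc C σ.G ∅ κ θ R u → D.E1 C σ ε B₁ u →
        D.PI (fun x => 1 / ‖x‖ ^ 3 * gsq u x) ≤
          B * (D.PI (fun x => ‖Qe 𝔤 C σ ε u x‖ ^ 2) + D.PI fun x => 1 / ‖x‖ ^ 2 * ‖u x‖ ^ 2) :=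
  D.c3_grad_crude C σ B₁

end Levi

end Crest.Agent.R330

end
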